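import Mathlib

/-!
# Tables on a set of cells with signed margins

`R` is the set of rows and `C` the set of columns.  A table is a function on cells
`R × C → ℕ`.  Its signed margin vector `dv T : R ⊕ C → ℤ` is the row sum on each row and
minus the column sum on each column.  `Om E D` is the set of tables that vanish outside
the cell set `E` and have signed margin vector `D`, and `cnt E D` is its number of elements.
The main fact of this file is the recursion `cnt_rec` over the value of one cell.
-/

namespace Vale.Agent.Lib.P328.Hive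

open Finset

variable {R C : Type*} [Fintype R] [Fintype C] [DecidableEq R] [DecidableEq C]

/-- The signed unit vector of a cell: `+1` at its row, `-1` at its column. -/
def chi (e : R × C) : R ⊕ C → ℤ := Pi.single (Sum.inl e.1) 1 - Pi.single (Sum.inr e.2) 1

/-- The signed margin vector of a table: row sums on rows, minus column sums on columns. -/
def dv (T : R × C → ℕ) : R ⊕ C → ℤ := ∑ e, (T e : ℤ) • chi e

/-- Tables supported on the cell set `E` with signed margin vector `D`. -/
def Om (E : Finset (R × C)) (D : R ⊕ C → ℤ) : Set (R × C → ℕ) :=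
  {T | (∀ e, e ∉ E → T e = 0) ∧ dv T = D}

/-- The number of tables supported on `E` with signed margin vector `D`. -/
noncomputable def cnt (E : Finset (R × C)) (D : R ⊕ C → ℤ) : ℕ := (Om E D).ncard

theorem dv_inl (T : R × C → ℕ) (u : R) : dv T (Sum.inl u) = ∑ v, (T (u, v) : ℤ) := by
  unfold dv
  rw [Finset.sum_apply, Fintype.sum_prod_type]
  rw [Finset.sum_eq_single u]
  · apply Finset.sum_congr rfl
    intro v _
    simp [chi]
  · intro x _ hx
    apply Finset.sum_eq_zero
    intro v _
    simp [chi, Ne.symm hx]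
  · intro h
    exact absurd (Finset.mem_univ u) h

theorem dv_inr (T : R × C → ℕ) (v : C) : dv T (Sum.inr v) = - ∑ u, (T (u, v) : ℤ) := by
  unfold dv
  rw [Finset.sum_apply, Fintype.sum_prod_type_right]
  rw [Finset.sum_eq_single v]
  · rw [← Finset.sum_neg_distrib]
    apply Finset.sum_congr rfl
    intro u _
    simp [chi]
  · intro x _ hx
    apply Finset.sum_eq_zero
    intro u _
    simp [chi, Ne.symm hx]
  · intro h
    exact absurd (Finset.mem_univ v) h

theorem dv_update (T : R × C → ℕ) (e : R × C) (t : ℕ) :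
    dv (Function.update T e t) = dv T + ((t : ℤ) - (T e : ℤ)) • chi e := by
  unfold dv
  rw [← Finset.add_sum_erase Finset.univ (fun e' => ((Function.update T e t e' : ℕ) : ℤ) • chi e')
      (Finset.mem_univ e),
    ← Finset.add_sum_erase Finset.univ (fun e' => (T e' : ℤ) • chi e') (Finset.mem_univ e)]
  have h : ∑ x ∈ Finset.univ.erase e, ((Function.update T e t x : ℕ) : ℤ) • chi x
      = ∑ x ∈ Finset.univ.erase e, (T x : ℤ) • chi x := by
    apply Finset.sum_congr rfl
    intro x hx
    rw [Function.update_of_ne (Finset.ne_of_mem_erase hx)]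
  rw [h, Function.update_self, sub_smul]
  abel

theorem entry_le {E : Finset (R × C)} {D : R ⊕ C → ℤ} {T : R × C → ℕ} (hT : T ∈ Om E D)
    (e : R × C) : (T e : ℤ) ≤ D (Sum.inl e.1) := by
  rw [← hT.2, dv_inl]
  exact Finset.single_le_sum (f := fun v => (T (e.1, v) : ℤ)) (fun _ _ => Int.natCast_nonneg _)
    (Finset.mem_univ e.2)

theorem Om_finite (E : Finset (R × C)) (D : R ⊕ C → ℤ) : (Om E D).Finite := by
  apply Set.Finite.subset (Set.finite_Icc (0 : R × C → ℕ) (fun e => (D (Sum.inl e.1)).toNat))
  intro T hT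
  rw [Set.mem_Icc]
  refine ⟨fun e => Nat.zero_le _, fun e => ?_⟩
  have h := entry_le hT e
  show T e ≤ (D (Sum.inl e.1)).toNat
  omega

theorem fiber_ncard (E : Finset (R × C)) (D : R ⊕ C → ℤ) (e : R × C) (he : e ∈ E) (t : ℕ) :
    {T ∈ Om E D | T e = t}.ncard = cnt (E.erase e) (D - (t : ℤ) • chi e) := by
  unfold cnt
  apply Set.ncard_congr (fun T _ => Function.update T e 0)
  · rintro T ⟨⟨hs, hd⟩, hTe⟩
    refine ⟨?_, ?_⟩
    · intro e' he'
      by_cases h : e' = e
      · subst h
        exact Function.update_self ..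
      · rw [Function.update_of_ne h]
        apply hs
        intro hmem
        exact he' (Finset.mem_erase.mpr ⟨h, hmem⟩)
    · rw [dv_update, hd, hTe]
      simp only [Nat.cast_zero, zero_sub, neg_smul]
      abel
  · rintro T T' ⟨_, hTe⟩ ⟨_, hTe'⟩ heq
    funext e'
    by_cases h : e' = e
    · subst h
      rw [hTe, hTe']
    · have := congrFun heq e'
      rwa [Function.update_of_ne h, Function.update_of_ne h] at this
  · rintro T' ⟨hs, hd⟩
    have hT'e : T' e = 0 := hs e (Finset.notMem_erase e E)
    refine ⟨Function.update T' e t, ⟨⟨?_, ?_⟩, Function.update_self ..⟩, ?_⟩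
    · intro e' he'
      have h : e' ≠ e := fun h => he' (h ▸ he)
      rw [Function.update_of_ne h]
      apply hs
      intro hmem
      exact he' (Finset.mem_of_mem_erase hmem)
    · rw [dv_update, hd, hT'e]
      simp only [Nat.cast_zero, sub_zero]
      abel
    · rw [Function.update_idem, ← hT'e]
      exact Function.update_eq_self e T'

theorem trunc_ncard (E : Finset (R × C)) (D : R ⊕ C → ℤ) (e : R × C) (he : e ∈ E) (B : ℕ) :
    {T ∈ Om E D | T e < B}.ncard = ∑ t ∈ range B, cnt (E.erase e) (D - (t : ℤ) • chi e) := by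
  induction B with
  | zero => simp
  | succ B ih =>
    rw [Finset.sum_range_succ, ← ih, ← fiber_ncard E D e he B]
    have hsplit : {T ∈ Om E D | T e < B + 1}
        = {T ∈ Om E D | T e < B} ∪ {T ∈ Om E D | T e = B} := by
      ext T
      simp only [Set.mem_ofPred_eq, Set.mem_union]
      constructor
      · rintro ⟨h1, h2⟩
        rcases Nat.lt_succ_iff_lt_or_eq.mp h2 with h | h
        · exact Or.inl ⟨h1, h⟩
        · exact Or.inr ⟨h1, h⟩
      · rintro (⟨h1, h2⟩ | ⟨h1, h2⟩)
        · exact ⟨h1, by omega⟩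
        · exact ⟨h1, by omega⟩
    rw [hsplit]
    apply Set.ncard_union_eq
    · rw [Set.disjoint_left]
      rintro T ⟨_, h1⟩ ⟨_, h2⟩
      omega
    · exact (Om_finite E D).subset (fun T hT => hT.1)
    · exact (Om_finite E D).subset (fun T hT => hT.1)

/-- The recursion over the value of the cell `e`. -/
theorem cnt_rec (E : Finset (R × C)) (D : R ⊕ C → ℤ) (e : R × C) (he : e ∈ E) (B : ℕ)
    (hB : D (Sum.inl e.1) < B) :
    cnt E D = ∑ t ∈ range B, cnt (E.erase e) (D - (t : ℤ) • chi e) := by
  rw [← trunc_ncard E D e he B]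
  unfold cnt
  congr 1
  ext T
  simp only [Set.mem_ofPred_eq]
  constructor
  · intro hT
    refine ⟨hT, ?_⟩
    have h := entry_le hT e
    omega
  · exact fun h => h.1

theorem cnt_empty_ne_zero {D : R ⊕ C → ℤ} (h : cnt (∅ : Finset (R × C)) D ≠ 0) : D = 0 := by
  obtain ⟨T, hT⟩ := Set.nonempty_of_ncard_ne_zero h
  have hT0 : T = 0 := by
    funext e
    exact hT.1 e (Finset.notMem_empty e)
  rw [← hT.2, hT0]
  unfold dv
  simp

theorem margin_zero_of_no_cell {E : Finset (R × C)} {D : R ⊕ C → ℤ} {T : R × C → ℕ}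
    (hT : T ∈ Om E D) (a : R ⊕ C) (ha : ∀ e ∈ E, chi e a = 0) : D a = 0 := by
  rw [← hT.2]
  unfold dv
  rw [Finset.sum_apply]
  apply Finset.sum_eq_zero
  intro e _
  by_cases he : e ∈ E
  · simp [ha e he]
  · simp [hT.1 e he]

end Vale.Agent.Lib.P328.Hive
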