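import Vale.Agent.Lib.P328.Hive.ZigZag

/-!
# The floor/ceiling four functions inequality on the natural numbers

If `f x * g y ≤ h ((x+y)/2) * k ((x+y+1)/2)` for all `x, y`, then
the product of the sums of `f` and `g` is at most the product of the sums of `h` and `k`;
in fact the inequality holds antidiagonal by antidiagonal.
-/

namespace Vale.Agent.Lib.P328.Hive

open Finset

/-- The zigzag enumeration of `0, ..., s` starting in the middle. -/
def tz (s j : ℕ) : ℕ := if (s + j) % 2 = 0 then (s + j) / 2 else (s - j - 1) / 2

/-- The inverse of the zigzag enumeration. -/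
def tzInv (s t : ℕ) : ℕ := if s ≤ 2 * t then 2 * t - s else s - 2 * t - 1

theorem four_fn_antidiag (f g h k : ℕ → ℝ) (hf : ∀ x, 0 ≤ f x) (hg : ∀ x, 0 ≤ g x)
    (hh : ∀ x, 0 ≤ h x) (hk : ∀ x, 0 ≤ k x)
    (H : ∀ x y, f x * g y ≤ h ((x + y) / 2) * k ((x + y + 1) / 2)) (s : ℕ) :
    ∑ x ∈ range (s + 1), f x * g (s - x) ≤ ∑ t ∈ range (s + 1), h t * k (s - t) := by
  set α : ℕ → ℝ := fun x => if x ≤ s then f x * g (s - x) else 0 with hα
  set b : ℕ → ℝ := fun j => if j ≤ s then h (tz s j) * k (s - tz s j) else 0 with hbdef
  have hbnn : ∀ j, 0 ≤ b j := by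
    intro j
    simp only [hbdef]
    split_ifs
    · exact mul_nonneg (hh _) (hk _)
    · exact le_refl _
  have h0 : ∀ x, α x ≤ b 0 := by
    intro x
    simp only [hα, hbdef]
    rw [if_pos (Nat.zero_le s)]
    have e1 : tz s 0 = s / 2 := by
      unfold tz
      split_ifs <;> omega
    have e2 : s - s / 2 = (s + 1) / 2 := by omega
    rw [e1, e2]
    split_ifs with hx
    · have hH := H x (s - x)
      rw [show x + (s - x) = s by omega] at hH
      exact hH
    · exact mul_nonneg (hh _) (hk _)
  have h1 : ∀ x j, 1 ≤ j → α x * α (x + j) ≤ b (j - 1) * b j := by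
    intro x j hj
    by_cases hxj : x + j ≤ s
    · have hx : x ≤ s := by omega
      have hj' : j ≤ s := by omega
      have hj1 : j - 1 ≤ s := by omega
      simp only [hα, hbdef, if_pos hx, if_pos hxj, if_pos hj', if_pos hj1]
      have A := H x (s - (x + j))
      have B := H (x + j) (s - x)
      rw [show x + (s - (x + j)) = s - j by omega] at A
      rw [show x + j + (s - x) = s + j by omega] at B
      have P : (f x * g (s - (x + j))) * (f (x + j) * g (s - x))
          ≤ (h ((s - j) / 2) * k ((s - j + 1) / 2)) * (h ((s + j) / 2) * k ((s + j + 1) / 2)) :=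
        mul_le_mul A B (mul_nonneg (hf _) (hg _)) (mul_nonneg (hh _) (hk _))
      rcases Nat.mod_two_eq_zero_or_one (s + j) with hp | hp
      · have e1 : tz s j = (s + j) / 2 := by
          unfold tz
          rw [if_pos hp]
        have e2 : tz s (j - 1) = (s - j) / 2 := by
          unfold tz
          rw [if_neg (by omega)]
          omega
        have e3 : s - (s + j) / 2 = (s - j + 1) / 2 := by omega
        have e4 : s - (s - j) / 2 = (s + j + 1) / 2 := by omega
        rw [e1, e2, e3, e4]
        calc f x * g (s - x) * (f (x + j) * g (s - (x + j)))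
            = (f x * g (s - (x + j))) * (f (x + j) * g (s - x)) := by ring
          _ ≤ (h ((s - j) / 2) * k ((s - j + 1) / 2)) * (h ((s + j) / 2) * k ((s + j + 1) / 2)) := P
          _ = h ((s - j) / 2) * k ((s + j + 1) / 2) * (h ((s + j) / 2) * k ((s - j + 1) / 2)) := by
            ring
      · have e1 : tz s j = (s - j) / 2 := by
          unfold tz
          rw [if_neg (by omega)]
          omega
        have e2 : tz s (j - 1) = (s + j) / 2 := by
          unfold tz
          rw [if_pos (by omega)]
          omega
        have e3 : s - (s + j) / 2 = (s - j + 1) / 2 := by omega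
        have e4 : s - (s - j) / 2 = (s + j + 1) / 2 := by omega
        rw [e1, e2, e3, e4]
        calc f x * g (s - x) * (f (x + j) * g (s - (x + j)))
            = (f x * g (s - (x + j))) * (f (x + j) * g (s - x)) := by ring
          _ ≤ (h ((s - j) / 2) * k ((s - j + 1) / 2)) * (h ((s + j) / 2) * k ((s + j + 1) / 2)) := P
          _ = h ((s + j) / 2) * k ((s - j + 1) / 2) * (h ((s - j) / 2) * k ((s + j + 1) / 2)) := by
            ring
    · have hz : α (x + j) = 0 := by
        simp only [hα]
        rw [if_neg hxj]
      rw [hz, mul_zero]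
      exact mul_nonneg (hbnn _) (hbnn _)
  have Z := zigzag_sum α b h0 h1 hbnn s
  have L : ∑ x ∈ range (s + 1), α x = ∑ x ∈ range (s + 1), f x * g (s - x) := by
    apply sum_congr rfl
    intro x hx
    have hx' := mem_range.mp hx
    simp only [hα]
    rw [if_pos (by omega)]
  have Rr : ∑ j ∈ range (s + 1), b j = ∑ t ∈ range (s + 1), h t * k (s - t) := by
    apply Finset.sum_nbij' (fun j => tz s j) (fun t => tzInv s t)
    · intro j hj
      have hj' := mem_range.mp hj
      rw [mem_range]
      unfold tz
      split_ifs <;> omega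
    · intro t ht
      have ht' := mem_range.mp ht
      rw [mem_range]
      unfold tzInv
      split_ifs <;> omega
    · intro j hj
      have hj' := mem_range.mp hj
      unfold tz tzInv
      split_ifs <;> omega
    · intro t ht
      have ht' := mem_range.mp ht
      unfold tz tzInv
      split_ifs <;> omega
    · intro j hj
      have hj' := mem_range.mp hj
      simp only [hbdef]
      rw [if_pos (by omega)]
  rw [← L, ← Rr]
  exact Z

open Polynomial in
/-- The generating polynomial of the first `B` values of `f`. -/
noncomputable def genPoly (B : ℕ) (f : ℕ → ℝ) : Polynomial ℝ :=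
  ∑ x ∈ range B, Polynomial.monomial x (f x)

theorem genPoly_coeff (B : ℕ) (f : ℕ → ℝ) (n : ℕ) :
    (genPoly B f).coeff n = if n < B then f n else 0 := by
  unfold genPoly
  rw [Polynomial.finsetSum_coeff]
  simp only [Polynomial.coeff_monomial]
  rw [Finset.sum_ite_eq']
  simp only [mem_range]

theorem genPoly_eval (B : ℕ) (f : ℕ → ℝ) :
    (genPoly B f).eval 1 = ∑ x ∈ range B, f x := by
  unfold genPoly
  rw [Polynomial.eval_finsetSum]
  apply sum_congr rfl
  intro x _
  rw [Polynomial.eval_monomial, one_pow, mul_one]

theorem genPoly_natDegree (B : ℕ) (f : ℕ → ℝ) : (genPoly B f).natDegree ≤ B := by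
  unfold genPoly
  apply Polynomial.natDegree_sum_le_of_forall_le
  intro x hx
  exact le_trans (Polynomial.natDegree_monomial_le _) (le_of_lt (mem_range.mp hx))

theorem genPoly_mul_eval (B : ℕ) (f g : ℕ → ℝ) :
    (∑ x ∈ range B, f x) * (∑ y ∈ range B, g y)
      = ∑ s ∈ range (2 * B + 1), ∑ x ∈ range (s + 1),
          (if x < B then f x else 0) * (if s - x < B then g (s - x) else 0) := by
  rw [← genPoly_eval B f, ← genPoly_eval B g, ← Polynomial.eval_mul]
  have hdeg : (genPoly B f * genPoly B g).natDegree < 2 * B + 1 := by
    have h1 := Polynomial.natDegree_mul_le (p := genPoly B f) (q := genPoly B g)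
    have h2 := genPoly_natDegree B f
    have h3 := genPoly_natDegree B g
    omega
  rw [Polynomial.eval_eq_sum_range' hdeg]
  apply sum_congr rfl
  intro s _
  rw [one_pow, mul_one, Polynomial.coeff_mul,
    Finset.Nat.sum_antidiagonal_eq_sum_range_succ
      (fun i j => (genPoly B f).coeff i * (genPoly B g).coeff j) s]
  apply sum_congr rfl
  intro x _
  rw [genPoly_coeff, genPoly_coeff]

/-- The floor/ceiling four functions inequality for sums over `0, ..., B - 1`. -/
theorem four_fn (f g h k : ℕ → ℝ) (hf : ∀ x, 0 ≤ f x) (hg : ∀ x, 0 ≤ g x)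
    (hh : ∀ x, 0 ≤ h x) (hk : ∀ x, 0 ≤ k x)
    (H : ∀ x y, f x * g y ≤ h ((x + y) / 2) * k ((x + y + 1) / 2)) (B : ℕ) :
    (∑ x ∈ range B, f x) * (∑ y ∈ range B, g y)
      ≤ (∑ t ∈ range B, h t) * (∑ t ∈ range B, k t) := by
  rw [genPoly_mul_eval B f g, genPoly_mul_eval B h k]
  apply sum_le_sum
  intro s _
  apply four_fn_antidiag (fun x => if x < B then f x else 0) (fun x => if x < B then g x else 0)
    (fun x => if x < B then h x else 0) (fun x => if x < B then k x else 0)
  · intro x; split_ifs; exact hf x; exact le_refl _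
  · intro x; split_ifs; exact hg x; exact le_refl _
  · intro x; split_ifs; exact hh x; exact le_refl _
  · intro x; split_ifs; exact hk x; exact le_refl _
  · intro x y
    by_cases hx : x < B
    · by_cases hy : y < B
      · rw [if_pos hx, if_pos hy, if_pos (by omega), if_pos (by omega)]
        exact H x y
      · rw [if_neg hy, mul_zero]
        apply mul_nonneg
        · split_ifs; exact hh _; exact le_refl _
        · split_ifs; exact hk _; exact le_refl _
    · rw [if_neg hx, zero_mul]
      apply mul_nonneg
      · split_ifs; exact hh _; exact le_refl _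
      · split_ifs; exact hk _; exact le_refl _

end Vale.Agent.Lib.P328.Hive
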