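import Vale.Agent.Lib.P328.Hive.FourFn
import Vale.Agent.Lib.P328.Hive.Count

/-!
# The midpoint inequality for table counts

For tables supported on a cell set `E`: if `z + z' = D + D'` and `z - z'` is the difference
of two unit vectors (or zero), then `cnt E D * cnt E D' ≤ cnt E z * cnt E z'`.  The proof is by
induction on the number of cells, removing a cell that contains the vertex where `z` exceeds
`z'`, and applying the floor/ceiling four functions inequality to the value of that cell.
-/

namespace Vale.Agent.Lib.P328.Hive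

open Finset

variable {R C : Type*} [Fintype R] [Fintype C] [DecidableEq R] [DecidableEq C]

theorem half_sum_cast (x y : ℕ) :
    (((x + y + 1) / 2 : ℕ) : ℤ) + (((x + y) / 2 : ℕ) : ℤ) = (x : ℤ) + (y : ℤ) := by
  omega

/-- One step of the induction, for a cell `e` whose row is the vertex where `z` exceeds `z'`. -/
theorem step_row (E : Finset (R × C)) (e : R × C) (he : e ∈ E)
    (IH : ∀ D D' z z' : R ⊕ C → ℤ, z + z' = D + D' →
      (∃ a b, z - z' = Pi.single a 1 - Pi.single b 1) →
      cnt (E.erase e) D * cnt (E.erase e) D' ≤ cnt (E.erase e) z * cnt (E.erase e) z')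
    (D D' z z' : R ⊕ C → ℤ) (hsum : z + z' = D + D') (b : R ⊕ C)
    (hmid : z - z' = Pi.single (Sum.inl e.1) 1 - Pi.single b 1) :
    cnt E D * cnt E D' ≤ cnt E z * cnt E z' := by
  obtain ⟨B, hB1, hB2, hB3, hB4⟩ : ∃ B : ℕ, D (Sum.inl e.1) < B ∧ D' (Sum.inl e.1) < B ∧
      z (Sum.inl e.1) < B ∧ z' (Sum.inl e.1) < B := by
    refine ⟨(max (max (D (Sum.inl e.1)) (D' (Sum.inl e.1)))
      (max (z (Sum.inl e.1)) (z' (Sum.inl e.1)))).toNat + 1, ?_, ?_, ?_, ?_⟩ <;> omega
  rw [cnt_rec E D e he B hB1, cnt_rec E D' e he B hB2, cnt_rec E z e he B hB3,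
    cnt_rec E z' e he B hB4]
  have key := four_fn (fun t => (cnt (E.erase e) (D - (t : ℤ) • chi e) : ℝ))
    (fun t => (cnt (E.erase e) (D' - (t : ℤ) • chi e) : ℝ))
    (fun t => (cnt (E.erase e) (z' - (t : ℤ) • chi e) : ℝ))
    (fun t => (cnt (E.erase e) (z - (t : ℤ) • chi e) : ℝ))
    (fun _ => Nat.cast_nonneg _) (fun _ => Nat.cast_nonneg _) (fun _ => Nat.cast_nonneg _)
    (fun _ => Nat.cast_nonneg _) ?_ B
  · have key' : (∑ t ∈ range B, cnt (E.erase e) (D - (t : ℤ) • chi e))
        * (∑ t ∈ range B, cnt (E.erase e) (D' - (t : ℤ) • chi e))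
        ≤ (∑ t ∈ range B, cnt (E.erase e) (z' - (t : ℤ) • chi e))
          * (∑ t ∈ range B, cnt (E.erase e) (z - (t : ℤ) • chi e)) := by
      exact_mod_cast key
    exact le_trans key' (le_of_eq (Nat.mul_comm _ _))
  · intro x y
    have hcf := half_sum_cast x y
    have hIH := IH (D - (x : ℤ) • chi e) (D' - (y : ℤ) • chi e)
      (z - (((x + y + 1) / 2 : ℕ) : ℤ) • chi e) (z' - (((x + y) / 2 : ℕ) : ℤ) • chi e) ?_ ?_
    · have hIH' : (cnt (E.erase e) (D - (x : ℤ) • chi e) : ℝ)
          * (cnt (E.erase e) (D' - (y : ℤ) • chi e) : ℝ)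
          ≤ (cnt (E.erase e) (z - (((x + y + 1) / 2 : ℕ) : ℤ) • chi e) : ℝ)
            * (cnt (E.erase e) (z' - (((x + y) / 2 : ℕ) : ℤ) • chi e) : ℝ) := by
        exact_mod_cast hIH
      exact le_trans hIH' (le_of_eq (mul_comm _ _))
    · funext v
      have h1 := congrFun hsum v
      simp only [Pi.add_apply, Pi.sub_apply, Pi.smul_apply, smul_eq_mul] at h1 ⊢
      linear_combination h1 - chi e v * hcf
    · rcases Nat.mod_two_eq_zero_or_one (x + y) with hp | hp
      · refine ⟨Sum.inl e.1, b, ?_⟩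
        have hc : (((x + y + 1) / 2 : ℕ) : ℤ) = (((x + y) / 2 : ℕ) : ℤ) := by omega
        rw [hc, ← hmid]
        abel
      · refine ⟨Sum.inr e.2, b, ?_⟩
        have hc : (((x + y + 1) / 2 : ℕ) : ℤ) = (((x + y) / 2 : ℕ) : ℤ) + 1 := by omega
        rw [hc]
        funext v
        have h1 := congrFun hmid v
        simp only [Pi.sub_apply, Pi.smul_apply, smul_eq_mul, chi] at h1 ⊢
        linear_combination h1

/-- One step of the induction, for a cell `e` whose column is the vertex where `z` exceeds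
`z'`. -/
theorem step_col (E : Finset (R × C)) (e : R × C) (he : e ∈ E)
    (IH : ∀ D D' z z' : R ⊕ C → ℤ, z + z' = D + D' →
      (∃ a b, z - z' = Pi.single a 1 - Pi.single b 1) →
      cnt (E.erase e) D * cnt (E.erase e) D' ≤ cnt (E.erase e) z * cnt (E.erase e) z')
    (D D' z z' : R ⊕ C → ℤ) (hsum : z + z' = D + D') (b : R ⊕ C)
    (hmid : z - z' = Pi.single (Sum.inr e.2) 1 - Pi.single b 1) :
    cnt E D * cnt E D' ≤ cnt E z * cnt E z' := by
  obtain ⟨B, hB1, hB2, hB3, hB4⟩ : ∃ B : ℕ, D (Sum.inl e.1) < B ∧ D' (Sum.inl e.1) < B ∧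
      z (Sum.inl e.1) < B ∧ z' (Sum.inl e.1) < B := by
    refine ⟨(max (max (D (Sum.inl e.1)) (D' (Sum.inl e.1)))
      (max (z (Sum.inl e.1)) (z' (Sum.inl e.1)))).toNat + 1, ?_, ?_, ?_, ?_⟩ <;> omega
  rw [cnt_rec E D e he B hB1, cnt_rec E D' e he B hB2, cnt_rec E z e he B hB3,
    cnt_rec E z' e he B hB4]
  have key := four_fn (fun t => (cnt (E.erase e) (D - (t : ℤ) • chi e) : ℝ))
    (fun t => (cnt (E.erase e) (D' - (t : ℤ) • chi e) : ℝ))
    (fun t => (cnt (E.erase e) (z - (t : ℤ) • chi e) : ℝ))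
    (fun t => (cnt (E.erase e) (z' - (t : ℤ) • chi e) : ℝ))
    (fun _ => Nat.cast_nonneg _) (fun _ => Nat.cast_nonneg _) (fun _ => Nat.cast_nonneg _)
    (fun _ => Nat.cast_nonneg _) ?_ B
  · exact_mod_cast key
  · intro x y
    have hcf := half_sum_cast x y
    have hIH := IH (D - (x : ℤ) • chi e) (D' - (y : ℤ) • chi e)
      (z - (((x + y) / 2 : ℕ) : ℤ) • chi e) (z' - (((x + y + 1) / 2 : ℕ) : ℤ) • chi e) ?_ ?_
    · exact_mod_cast hIH
    · funext v
      have h1 := congrFun hsum v
      simp only [Pi.add_apply, Pi.sub_apply, Pi.smul_apply, smul_eq_mul] at h1 ⊢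
      linear_combination h1 - chi e v * hcf
    · rcases Nat.mod_two_eq_zero_or_one (x + y) with hp | hp
      · refine ⟨Sum.inr e.2, b, ?_⟩
        have hc : (((x + y + 1) / 2 : ℕ) : ℤ) = (((x + y) / 2 : ℕ) : ℤ) := by omega
        rw [hc, ← hmid]
        abel
      · refine ⟨Sum.inl e.1, b, ?_⟩
        have hc : (((x + y + 1) / 2 : ℕ) : ℤ) = (((x + y) / 2 : ℕ) : ℤ) + 1 := by omega
        rw [hc]
        funext v
        have h1 := congrFun hmid v
        simp only [Pi.sub_apply, Pi.smul_apply, smul_eq_mul, chi] at h1 ⊢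
        linear_combination h1

/-- If no cell of `E` contains the vertex `a` where `z` exceeds `z'`, the left side vanishes. -/
theorem zero_of_no_cell (E : Finset (R × C)) (D D' z z' : R ⊕ C → ℤ) (hsum : z + z' = D + D')
    (a b : R ⊕ C) (hab' : a ≠ b) (hab : z - z' = Pi.single a 1 - Pi.single b 1)
    (hno : ∀ e ∈ E, chi e a = 0) : cnt E D * cnt E D' ≤ cnt E z * cnt E z' := by
  by_cases h1 : cnt E D = 0
  · rw [h1, zero_mul]
    exact Nat.zero_le _
  by_cases h2 : cnt E D' = 0
  · rw [h2, mul_zero]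
    exact Nat.zero_le _
  exfalso
  obtain ⟨T, hT⟩ := Set.nonempty_of_ncard_ne_zero h1
  obtain ⟨T', hT'⟩ := Set.nonempty_of_ncard_ne_zero h2
  have e1 := margin_zero_of_no_cell hT a hno
  have e2 := margin_zero_of_no_cell hT' a hno
  have h3 := congrFun hab a
  have h4 := congrFun hsum a
  simp only [Pi.sub_apply, Pi.add_apply, Pi.single_eq_same, Pi.single_eq_of_ne hab',
    sub_zero] at h3 h4
  omega

/-- The midpoint inequality for table counts on an arbitrary set of cells. -/
theorem main_ineq : ∀ (n : ℕ) (E : Finset (R × C)), E.card = n → ∀ D D' z z' : R ⊕ C → ℤ,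
    z + z' = D + D' → (∃ a b, z - z' = Pi.single a 1 - Pi.single b 1) →
    cnt E D * cnt E D' ≤ cnt E z * cnt E z' := by
  intro n
  induction n with
  | zero =>
    intro E hE D D' z z' hsum hmid
    have hE' : E = ∅ := Finset.card_eq_zero.mp hE
    subst hE'
    by_cases h1 : cnt (∅ : Finset (R × C)) D = 0
    · rw [h1, zero_mul]
      exact Nat.zero_le _
    by_cases h2 : cnt (∅ : Finset (R × C)) D' = 0
    · rw [h2, mul_zero]
      exact Nat.zero_le _
    have hD := cnt_empty_ne_zero h1
    have hD' := cnt_empty_ne_zero h2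
    subst hD
    subst hD'
    obtain ⟨a, b, hab⟩ := hmid
    have hz : z = 0 ∧ z' = 0 := by
      by_cases hab' : a = b
      · subst hab'
        have h3 : z = z' := by
          rw [sub_self] at hab
          exact sub_eq_zero.mp hab
        subst h3
        have h5 : z = 0 := by
          funext v
          have h4 := congrFun hsum v
          simp only [Pi.add_apply, Pi.zero_apply, add_zero] at h4 ⊢
          omega
        exact ⟨h5, h5⟩
      · exfalso
        have h3 := congrFun hab a
        have h4 := congrFun hsum a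
        simp only [Pi.sub_apply, Pi.add_apply, Pi.zero_apply, Pi.single_eq_same,
          Pi.single_eq_of_ne hab', add_zero, sub_zero] at h3 h4
        omega
    rw [hz.1, hz.2]
  | succ n ih =>
    intro E hE D D' z z' hsum hmid
    obtain ⟨a, b, hab⟩ := hmid
    have IH : ∀ e ∈ E, ∀ D D' z z' : R ⊕ C → ℤ, z + z' = D + D' →
        (∃ a b, z - z' = Pi.single a 1 - Pi.single b 1) →
        cnt (E.erase e) D * cnt (E.erase e) D' ≤ cnt (E.erase e) z * cnt (E.erase e) z' :=
      fun e he => ih (E.erase e) (by rw [Finset.card_erase_of_mem he, hE]; rfl)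
    by_cases hab' : a = b
    · subst hab'
      have hne : E.Nonempty := Finset.card_pos.mp (by omega)
      obtain ⟨e, he⟩ := hne
      apply step_row E e he (IH e he) D D' z z' hsum (Sum.inl e.1)
      rw [hab, sub_self, sub_self]
    · rcases a with u | v
      · by_cases hex : ∃ v, (u, v) ∈ E
        · obtain ⟨v, hv⟩ := hex
          exact step_row E (u, v) hv (IH _ hv) D D' z z' hsum b hab
        · apply zero_of_no_cell E D D' z z' hsum (Sum.inl u) b hab' hab
          intro e he
          have hne : e.1 ≠ u := by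
            intro h
            apply hex
            exact ⟨e.2, by rw [← h]; exact he⟩
          simp [chi, Ne.symm hne]
      · by_cases hex : ∃ u, (u, v) ∈ E
        · obtain ⟨u, hu⟩ := hex
          exact step_col E (u, v) hu (IH _ hu) D D' z z' hsum b hab
        · apply zero_of_no_cell E D D' z z' hsum (Sum.inr v) b hab' hab
          intro e he
          have hne : e.2 ≠ v := by
            intro h
            apply hex
            exact ⟨e.1, by rw [← h]; exact he⟩
          simp [chi, Ne.symm hne]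

/-- The midpoint inequality for table counts, without the auxiliary induction variable. -/
theorem cnt_mid (E : Finset (R × C)) (D D' z z' : R ⊕ C → ℤ) (hsum : z + z' = D + D')
    (a b : R ⊕ C) (hmid : z - z' = Pi.single a 1 - Pi.single b 1) :
    cnt E D * cnt E D' ≤ cnt E z * cnt E z' :=
  main_ineq E.card E rfl D D' z z' hsum ⟨a, b, hmid⟩

end Vale.Agent.Lib.P328.Hive
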