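import Vale.Agent.Lib.P328.Hive.Main
import Vale.Agent.Lib.P328.CT.Defs

/-!
# Midpoint and rhombus inequalities for the number of contingency tables

`CT.tables r c` is the finite set of tables `R → C → ℕ` with row sums `r` and column sums `c`.
This file transfers the midpoint inequality `cnt_mid` to the cardinalities of `CT.tables r c`
(written `N` below):

* `tables_mid` : both margins vary, in signed form;
* `tables_mid_col` : fixed row sums; if `z + z' = S + S'` and `z - z' = e_b - e_c` then
  `N(S) * N(S') ≤ N(z) * N(z')`;
* `tables_mid_row` : the same with rows and columns exchanged;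
* `tables_mid_even`, `tables_mid_both_even` : exact log-concavity at even midpoints;
* `hive` : the rhombus inequality
  `N(g + 2 e_a) * N(g + e_b + e_c) ≤ N(g + e_a + e_b) * N(g + e_a + e_c)`.
-/

namespace Vale.Agent.Lib.P328.Hive

open Finset
open scoped Classical

variable {R C : Type*} [Fintype R] [Fintype C]

/-- The signed margin vector of a pair of margins: `r` on rows, `-c` on columns. -/
def margin (r : R → ℕ) (c : C → ℕ) : R ⊕ C → ℤ :=
  Sum.elim (fun i => (r i : ℤ)) (fun j => -(c j : ℤ))

theorem mem_Om_univ (T : R × C → ℕ) (r : R → ℕ) (c : C → ℕ) :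
    T ∈ Om (Finset.univ : Finset (R × C)) (margin r c) ↔
      (∀ i, ∑ j, T (i, j) = r i) ∧ (∀ j, ∑ i, T (i, j) = c j) := by
  constructor
  · rintro ⟨_, hd⟩
    constructor
    · intro i
      have h := congrFun hd (Sum.inl i)
      rw [dv_inl] at h
      simp only [margin, Sum.elim_inl] at h
      exact_mod_cast h
    · intro j
      have h := congrFun hd (Sum.inr j)
      rw [dv_inr] at h
      simp only [margin, Sum.elim_inr, neg_inj] at h
      exact_mod_cast h
  · rintro ⟨h1, h2⟩
    refine ⟨fun e he => absurd (Finset.mem_univ e) he, ?_⟩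
    funext x
    rcases x with i | j
    · rw [dv_inl]
      simp only [margin, Sum.elim_inl]
      exact_mod_cast h1 i
    · rw [dv_inr]
      simp only [margin, Sum.elim_inr, neg_inj]
      exact_mod_cast h2 j

theorem cnt_univ_eq (r : R → ℕ) (c : C → ℕ) :
    cnt (Finset.univ : Finset (R × C)) (margin r c) = (CT.tables r c).card := by
  unfold cnt
  rw [← Set.ncard_coe_finset (CT.tables r c)]
  have h : Om (Finset.univ : Finset (R × C)) (margin r c)
      = (fun (M : R → C → ℕ) (e : R × C) => M e.1 e.2) '' (↑(CT.tables r c) : Set (R → C → ℕ)) := by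
    ext T
    rw [mem_Om_univ]
    constructor
    · intro hT
      refine ⟨fun i j => T (i, j), ?_, rfl⟩
      rw [Finset.mem_coe, CT.mem_tables]
      exact hT
    · rintro ⟨M, hM, rfl⟩
      rw [Finset.mem_coe, CT.mem_tables] at hM
      exact hM
  rw [h]
  apply Set.ncard_image_of_injective
  intro M M' hMM
  funext i j
  exact congrFun hMM (i, j)

/-- Midpoint inequality for the number of contingency tables, both margins varying, in signed
form: the signed margin vectors (row sums, minus column sums) satisfy `z + z' = D + D'` and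
`z - z'` is a difference of two unit vectors. -/
theorem tables_mid (r r' ρ ρ' : R → ℕ) (S S' σ σ' : C → ℕ)
    (hsum : margin ρ σ + margin ρ' σ' = margin r S + margin r' S') (a b : R ⊕ C)
    (hmid : margin ρ σ - margin ρ' σ' = Pi.single a 1 - Pi.single b 1) :
    (CT.tables r S).card * (CT.tables r' S').card
      ≤ (CT.tables ρ σ).card * (CT.tables ρ' σ').card := by
  rw [← cnt_univ_eq, ← cnt_univ_eq, ← cnt_univ_eq, ← cnt_univ_eq]
  exact cnt_mid Finset.univ _ _ _ _ hsum a b hmid

/-- Fixed row sums `r`.  If `z + z' = S + S'` and `z - z' = e_b - e_c` (for `b = c` this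
means `z = z'`), then `N(S) * N(S') ≤ N(z) * N(z')`, where `N` is the number of tables with
row sums `r` and the given column sums. -/
theorem tables_mid_col (r : R → ℕ) (S S' z z' : C → ℕ) (b c : C)
    (hsum : ∀ j, z j + z' j = S j + S' j)
    (hdiff : ∀ j, (z j : ℤ) - (z' j : ℤ) = (if j = b then 1 else 0) - (if j = c then 1 else 0)) :
    (CT.tables r S).card * (CT.tables r S').card
      ≤ (CT.tables r z).card * (CT.tables r z').card := by
  apply tables_mid r r r r S S' z z' ?_ (Sum.inr c) (Sum.inr b) ?_
  · funext x
    rcases x with i | j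
    · simp only [margin, Pi.add_apply, Sum.elim_inl]
    · have h := hsum j
      simp only [margin, Pi.add_apply, Sum.elim_inr]
      omega
  · funext x
    rcases x with i | j
    · simp [margin]
    · have h := hdiff j
      simp only [margin, Pi.sub_apply, Sum.elim_inr, Pi.single_apply, Sum.inr.injEq]
      split_ifs at h ⊢ <;> omega

/-- Fixed column sums `c`.  If `z + z' = ρ + ρ'` and `z - z' = e_a - e_b`, then
`N(ρ) * N(ρ') ≤ N(z) * N(z')`, where `N` is the number of tables with column sums `c` and the
given row sums. -/
theorem tables_mid_row (c : C → ℕ) (ρ ρ' z z' : R → ℕ) (a b : R)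
    (hsum : ∀ i, z i + z' i = ρ i + ρ' i)
    (hdiff : ∀ i, (z i : ℤ) - (z' i : ℤ) = (if i = a then 1 else 0) - (if i = b then 1 else 0)) :
    (CT.tables ρ c).card * (CT.tables ρ' c).card
      ≤ (CT.tables z c).card * (CT.tables z' c).card := by
  apply tables_mid ρ ρ' z z' c c c c ?_ (Sum.inl a) (Sum.inl b) ?_
  · funext x
    rcases x with i | j
    · have h := hsum i
      simp only [margin, Pi.add_apply, Sum.elim_inl]
      omega
    · simp only [margin, Pi.add_apply, Sum.elim_inr]
  · funext x
    rcases x with i | j
    · have h := hdiff i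
      simp only [margin, Pi.sub_apply, Sum.elim_inl, Pi.single_apply, Sum.inl.injEq]
      split_ifs at h ⊢ <;> omega
    · simp [margin]

/-- Exact log-concavity at even midpoints, both margins varying: if `r + r' = 2 ρ` and
`S + S' = 2 σ` then `N(r,S) * N(r',S') ≤ N(ρ,σ)^2`. -/
theorem tables_mid_both_even (r r' ρ : R → ℕ) (S S' σ : C → ℕ)
    (hr : ∀ i, r i + r' i = 2 * ρ i) (hS : ∀ j, S j + S' j = 2 * σ j) :
    (CT.tables r S).card * (CT.tables r' S').card ≤ (CT.tables ρ σ).card ^ 2 := by
  rw [pow_two]
  have hC : Nonempty (R ⊕ C) ∨ IsEmpty (R ⊕ C) := (isEmpty_or_nonempty (R ⊕ C)).symm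
  rcases hC with hne | hem
  · obtain ⟨a⟩ := hne
    apply tables_mid r r' ρ ρ S S' σ σ ?_ a a ?_
    · funext x
      rcases x with i | j
      · have h := hr i
        simp only [margin, Pi.add_apply, Sum.elim_inl]
        omega
      · have h := hS j
        simp only [margin, Pi.add_apply, Sum.elim_inr]
        omega
    · rw [sub_self, sub_self]
  · have e1 : r = ρ := funext fun i => (hem.false (Sum.inl i)).elim
    have e2 : r' = ρ := funext fun i => (hem.false (Sum.inl i)).elim
    have e3 : S = σ := funext fun j => (hem.false (Sum.inr j)).elim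
    have e4 : S' = σ := funext fun j => (hem.false (Sum.inr j)).elim
    rw [e1, e2, e3, e4]

/-- Exact log-concavity at even midpoints for fixed row sums: if `S + S' = 2 z` then
`N(S) * N(S') ≤ N(z)^2`. -/
theorem tables_mid_even (r : R → ℕ) (S S' z : C → ℕ) (hS : ∀ j, S j + S' j = 2 * z j) :
    (CT.tables r S).card * (CT.tables r S').card ≤ (CT.tables r z).card ^ 2 :=
  tables_mid_both_even r r r S S' z (fun i => by omega) hS

/-- The rhombus inequality for the number `N(S)` of tables with fixed row sums `r` and column
sums `S`:  `N(g + 2 e_a) * N(g + e_b + e_c) ≤ N(g + e_a + e_b) * N(g + e_a + e_c)`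
for all columns `a, b, c` (no distinctness is needed). -/
theorem hive (r : R → ℕ) (g : C → ℕ) (a b c : C) :
    (CT.tables r (fun j => g j + (if j = a then 2 else 0))).card
      * (CT.tables r (fun j => g j + (if j = b then 1 else 0) + (if j = c then 1 else 0))).card
    ≤ (CT.tables r (fun j => g j + (if j = a then 1 else 0) + (if j = b then 1 else 0))).card
      * (CT.tables r (fun j => g j + (if j = a then 1 else 0) + (if j = c then 1 else 0))).card := by
  apply tables_mid_col r _ _ _ _ b c
  · intro j
    split_ifs <;> omega
  · intro j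
    split_ifs <;> simp

end Vale.Agent.Lib.P328.Hive
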