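import Mathlib

/-!
# A zigzag lemma for nonnegative sequences

If `b 0` dominates every `α x` and `b (j-1) * b j` dominates every product
`α x * α (x + j)`, then the sum of any `D + 1` consecutive values of `α` is at most
`b 0 + ... + b D`.  This is the one-dimensional core of the floor/ceiling four functions
inequality.
-/

namespace Vale.Agent.Lib.P328.Hive

theorem two_point {a0 aD bm t : ℝ} (ht0 : 0 ≤ t) (h1 : t < aD) (h2 : aD ≤ a0)
    (h3 : a0 * aD ≤ bm * t) : a0 + aD ≤ bm + t := by
  have htpos : 0 < t := by
    rcases ht0.lt_or_eq with h | h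
    · exact h
    · exfalso
      rw [← h] at h3 h1
      have : 0 < a0 * aD := mul_pos (lt_of_lt_of_le h1 h2) h1
      linarith
  have hkey : 0 ≤ (bm + t - a0 - aD) * t := by
    have h4 : 0 ≤ (a0 - t) * (aD - t) :=
      mul_nonneg (by linarith) (by linarith)
    nlinarith
  have := nonneg_of_mul_nonneg_left hkey htpos
  linarith

theorem zigzag (α b : ℕ → ℝ)
    (h0 : ∀ x, α x ≤ b 0)
    (h1 : ∀ x j, 1 ≤ j → α x * α (x + j) ≤ b (j - 1) * b j)
    (hb : ∀ j, 0 ≤ b j) :
    ∀ D x0, ∑ x ∈ Finset.range (D + 1), α (x0 + x)
      ≤ ∑ j ∈ Finset.range D, b j + min (b D) (min (α x0) (α (x0 + D))) := by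
  intro D
  induction D with
  | zero =>
    intro x0
    simp only [zero_add, Finset.range_one, Finset.sum_singleton, add_zero, Finset.range_zero,
      Finset.sum_empty, min_self]
    rw [min_eq_right (h0 x0)]
  | succ D ih =>
    intro x0
    rcases le_or_gt (α (x0 + (D + 1))) (α x0) with hcase | hcase
    · -- the right end is the smaller one: drop it
      have hI := ih x0
      rw [Finset.sum_range_succ (fun x => α (x0 + x)) (D + 1), Finset.sum_range_succ b D]
      rw [min_eq_right hcase]
      have hmu : min (b D) (min (α x0) (α (x0 + D))) ≤ α x0 :=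
        le_trans (min_le_right _ _) (min_le_left _ _)
      have hmu2 : min (b D) (min (α x0) (α (x0 + D))) ≤ b D := min_le_left _ _
      rcases le_or_gt (α (x0 + (D + 1))) (b (D + 1)) with hbig | hsmall
      · rw [min_eq_right hbig]
        linarith
      · rw [min_eq_left hsmall.le]
        have hprod := h1 x0 (D + 1) (by omega)
        simp only [Nat.add_sub_cancel] at hprod
        have := two_point (hb (D + 1)) hsmall hcase hprod
        linarith
    · -- the left end is the smaller one: drop it
      have hI := ih (x0 + 1)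
      rw [Finset.sum_range_succ' (fun x => α (x0 + x)) (D + 1), Finset.sum_range_succ b D]
      rw [min_eq_left hcase.le]
      have hsum : ∑ k ∈ Finset.range (D + 1), α (x0 + (k + 1))
          = ∑ x ∈ Finset.range (D + 1), α (x0 + 1 + x) := by
        apply Finset.sum_congr rfl
        intro k _
        congr 1
        omega
      rw [hsum]
      have hidx : x0 + 1 + D = x0 + (D + 1) := by omega
      rw [hidx] at hI
      have hmu : min (b D) (min (α (x0 + 1)) (α (x0 + (D + 1)))) ≤ α (x0 + (D + 1)) :=
        le_trans (min_le_right _ _) (min_le_right _ _)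
      have hmu2 : min (b D) (min (α (x0 + 1)) (α (x0 + (D + 1)))) ≤ b D := min_le_left _ _
      simp only [add_zero]
      rcases le_or_gt (α x0) (b (D + 1)) with hbig | hsmall
      · rw [min_eq_right hbig]
        linarith
      · rw [min_eq_left hsmall.le]
        have hprod := h1 x0 (D + 1) (by omega)
        simp only [Nat.add_sub_cancel] at hprod
        have hprod' : α (x0 + (D + 1)) * α x0 ≤ b D * b (D + 1) := by
          rw [mul_comm]; exact hprod
        have := two_point (hb (D + 1)) hsmall hcase.le hprod'
        linarith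

/-- The form used later: the sum of `α` over `0, ..., D` is at most the sum of `b` over
`0, ..., D`. -/
theorem zigzag_sum (α b : ℕ → ℝ)
    (h0 : ∀ x, α x ≤ b 0)
    (h1 : ∀ x j, 1 ≤ j → α x * α (x + j) ≤ b (j - 1) * b j)
    (hb : ∀ j, 0 ≤ b j) (D : ℕ) :
    ∑ x ∈ Finset.range (D + 1), α x ≤ ∑ j ∈ Finset.range (D + 1), b j := by
  have h := zigzag α b h0 h1 hb D 0
  simp only [zero_add] at h
  rw [Finset.sum_range_succ b D]
  have : min (b D) (min (α 0) (α D)) ≤ b D := min_le_left _ _
  linarith

end Vale.Agent.Lib.P328.Hive
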